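import Vale.Agent.Lib.P243.Count
import Vale.Agent.Lib.P243.SymCenter
import Vale.Agent.Lib.P243.CoplanarFrame

/-!
# P243 (Bang's half-area cylinder covering problem): combined bounds

`K` is a convex body in three-space covered by `m` cylinders.  For each `i` the pair `e i`, `f i`
is an orthonormal pair (for the standard dot product) spanning the plane orthogonal to the axis
of the `i`-th cylinder, the base `B i` is an arbitrary planar set given in the orthonormal
coordinates `e i · x`, `f i · x` of that plane (`volume` is the outer measure on sets that are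
not measurable), and the `i`-th cylinder is the set of all `x` whose coordinate pair lies in
`B i`; `coords (e i) (f i) '' K` is the orthogonal projection of `K` to that plane.  The
directionwise relative area of the covering is the sum of the areas of the bases divided by the
areas of the corresponding projections of `K`.

* For every covering the directionwise relative area is at least `1/3 + 2 / (9 √(3 m))`, and at
  least the quotient of `1 - m ρ ^ 3` by `3 (1 - ρ)` for every `ρ` in `[0, 1)`.
* For two cylinders it is at least `1/2`.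
* If `K` is centrally symmetric about some point, it is at least `5/12`.
* If all the axes are orthogonal to one vector `v` (every `e i` equals `v`) and `A` is at most the
  area of the projection of `K` along every direction orthogonal to `v`, then the total base
  area is at least `A / 2`.
-/

namespace Vale.Agent.Results.P243.Combined

open MeasureTheory Set
open scoped ENNReal
open Vale.Agent.Lib.Helper4.Bang (dot coords)

theorem result (K : Set (ℝ × ℝ × ℝ)) (hconv : Convex ℝ K) (hcomp : IsCompact K)
    (hint : (interior K).Nonempty) (m : ℕ) (e f : Fin m → ℝ × ℝ × ℝ)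
    (horth : ∀ i, dot (e i) (e i) = 1 ∧ dot (f i) (f i) = 1 ∧ dot (e i) (f i) = 0)
    (B : Fin m → Set (ℝ × ℝ))
    (hcover : ∀ x ∈ K, ∃ i, coords (e i) (f i) x ∈ B i) :
    ENNReal.ofReal (1 / 3 + 2 / (9 * Real.sqrt (3 * m)))
      ≤ ∑ i, volume (B i) / volume (coords (e i) (f i) '' K) ∧
    (∀ ρ : ℝ, 0 ≤ ρ → ρ < 1 → ENNReal.ofReal ((1 - m * ρ ^ 3) / (3 * (1 - ρ)))
      ≤ ∑ i, volume (B i) / volume (coords (e i) (f i) '' K)) ∧
    (m = 2 → ENNReal.ofReal (1 / 2)
      ≤ ∑ i, volume (B i) / volume (coords (e i) (f i) '' K)) ∧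
    (∀ c : ℝ × ℝ × ℝ, (∀ x ∈ K, c + c - x ∈ K) →
      ENNReal.ofReal (5 / 12) ≤ ∑ i, volume (B i) / volume (coords (e i) (f i) '' K)) ∧
    (∀ v : ℝ × ℝ × ℝ, (∀ i, e i = v) → ∀ A : ℝ≥0∞,
      (∀ w : ℝ × ℝ × ℝ, dot w w = 1 → dot v w = 0 → A ≤ volume (coords v w '' K)) →
      A / 2 ≤ ∑ i, volume (B i)) := by
  have hcount := Vale.Agent.Lib.P243.Cyl.cylinder_count K hconv hcomp hint m e f horth B hcover
  refine ⟨hcount.2.2, hcount.2.1, ?_, ?_, ?_⟩
  · intro hm
    have h := hcount.2.1 (1 / 2) (by norm_num) (by norm_num)
    have e1 : ((1:ℝ) - (m:ℝ) * (1 / 2) ^ 3) / (3 * (1 - 1 / 2)) = 1 / 2 := by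
      rw [hm]
      norm_num
    rw [e1] at h
    exact h
  · intro c hsym
    exact Vale.Agent.Lib.P243.Sym.sym_cover_center K hconv hcomp hint c hsym m e f horth B hcover
  · intro v hv A hA
    obtain ⟨x, hx⟩ := hint
    obtain ⟨i0, -⟩ := hcover x (interior_subset hx)
    have hvv : dot v v = 1 := by
      rw [← hv i0]
      exact (horth i0).1
    refine Vale.Agent.Lib.P243.coplanar_frame K hconv hcomp v hvv f (fun i => ?_) B
      (fun y hy => ?_) A hA
    · refine ⟨(horth i).2.1, ?_⟩
      rw [← hv i]
      exact (horth i).2.2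
    · obtain ⟨i, hi⟩ := hcover y hy
      refine ⟨i, ?_⟩
      rw [← hv i]
      exact hi

end Vale.Agent.Results.P243.Combined
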