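import Mathlib
import Vale.Agent.Lib.P243.CoplanarFrame

/-!
# P243 (Bang's half-area cylinder covering problem): axes parallel to one plane

Let `K` be a compact convex set in three-space and `v` a unit vector.  Finitely many cylinders
whose axes are all orthogonal to `v` (that is, parallel to the plane orthogonal to `v`) cover
`K`.  The `i`-th cylinder is given by a unit vector `n i` orthogonal to `v` and a base `B i`:
the pair `v`, `n i` is an orthonormal basis of the plane orthogonal to the axis, the base is an
arbitrary planar set written in the coordinates `dot v x`, `dot (n i) x` of that plane, and the
cylinder is the set of all `x` with `coords v (n i) x ∈ B i`.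

If `A` is at most the area of the orthogonal projection `coords v w '' K` of `K` to the plane
spanned by `v` and `w`, for every unit vector `w` orthogonal to `v` (these are the projections
of `K` along all directions orthogonal to `v`), then the total base area is at least `A / 2`.
In particular the total base area is at least half of the minimal projection area of `K`.

Proof: slice by the planes orthogonal to `v`.  Each slice of `K` is a planar convex set covered
by strips whose cross-sections are the slices of the bases; Bang's plank theorem (extended to
strips with arbitrary cross-sections) bounds the total cross-section length below by the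
minimal width of the slice; each directional width of the slice is a concave function of the
height whose integral is a projection area of `K`, hence at least `A` times the normalised
tent function; integrating over the height gives `A / 2`.
-/

namespace Vale.Agent.Results.P243.CoplanarAxes

open MeasureTheory Set
open scoped ENNReal
open Vale.Agent.Lib.Helper4.Bang (dot coords)

theorem result (K : Set (ℝ × ℝ × ℝ)) (hconv : Convex ℝ K) (hcomp : IsCompact K)
    {m : ℕ} (v : ℝ × ℝ × ℝ) (hv : dot v v = 1)
    (n : Fin m → ℝ × ℝ × ℝ) (hn : ∀ i, dot (n i) (n i) = 1 ∧ dot v (n i) = 0)
    (B : Fin m → Set (ℝ × ℝ))
    (hcover : ∀ x ∈ K, ∃ i, coords v (n i) x ∈ B i)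
    (A : ℝ≥0∞)
    (hA : ∀ w : ℝ × ℝ × ℝ, dot w w = 1 → dot v w = 0 → A ≤ volume (coords v w '' K)) :
    A / 2 ≤ ∑ i, volume (B i) :=
  Vale.Agent.Lib.P243.coplanar_frame K hconv hcomp v hv n hn B hcover A hA

end Vale.Agent.Results.P243.CoplanarAxes
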