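import Vale.Agent.Lib.P243.Count

namespace Vale.Agent.Results.P243.CylinderCount

open MeasureTheory Set
open scoped ENNReal
open Vale.Agent.Lib.Helper4.Bang (dot coords)

/-- Cylinder coverings of a convex body in three-space by `m` cylinders with arbitrary axes.
`K` is a convex body. For each `i` the pair `e i`, `f i` is an orthonormal pair (for the
standard dot product) spanning the plane orthogonal to the axis of the `i`-th cylinder, the
base `B i` is an arbitrary planar set given in the orthonormal coordinates
`e i · x`, `f i · x` of that plane (`volume` is the outer measure on sets that are not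
measurable), and the `i`-th cylinder is the set of all `x` whose coordinate pair lies in
`B i`; `coords (e i) (f i) '' K` is the orthogonal projection of `K` to that plane.
If the cylinders cover `K`, then:

* the relative areas `β i` (area of the part of the base inside the projection of `K`,
  divided by the area of the projection) satisfy `1 ≤ ∑ i, (3 β i - 2 β i ^ (3/2))`;
* for every `ρ` in `[0, 1)` the directionwise relative area of the covering is at least
  the quotient of `1 - m ρ ^ 3` by `3 (1 - ρ)`; with `m = 2`, `ρ = 1/2` this is the sharp value `1/2`;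
* the directionwise relative area is at least `1/3 + 2 / (9 √(3 m))`, which exceeds `1/3`
  for every number `m` of cylinders. -/
theorem result (K : Set (ℝ × ℝ × ℝ)) (hconv : Convex ℝ K) (hcomp : IsCompact K)
    (hint : (interior K).Nonempty) (m : ℕ) (e f : Fin m → ℝ × ℝ × ℝ)
    (horth : ∀ i, dot (e i) (e i) = 1 ∧ dot (f i) (f i) = 1 ∧ dot (e i) (f i) = 0)
    (B : Fin m → Set (ℝ × ℝ))
    (hcover : ∀ x ∈ K, ∃ i, coords (e i) (f i) x ∈ B i) :
    (1 ≤ ∑ i, (3 * ((volume (B i ∩ coords (e i) (f i) '' K)).toReal
            / (volume (coords (e i) (f i) '' K)).toReal)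
        - 2 * ((volume (B i ∩ coords (e i) (f i) '' K)).toReal
            / (volume (coords (e i) (f i) '' K)).toReal)
          * Real.sqrt ((volume (B i ∩ coords (e i) (f i) '' K)).toReal
            / (volume (coords (e i) (f i) '' K)).toReal))) ∧
    (∀ ρ : ℝ, 0 ≤ ρ → ρ < 1 → ENNReal.ofReal ((1 - m * ρ ^ 3) / (3 * (1 - ρ)))
      ≤ ∑ i, volume (B i) / volume (coords (e i) (f i) '' K)) ∧
    ENNReal.ofReal (1 / 3 + 2 / (9 * Real.sqrt (3 * m)))
      ≤ ∑ i, volume (B i) / volume (coords (e i) (f i) '' K) :=
  Vale.Agent.Lib.P243.Cyl.cylinder_count K hconv hcomp hint m e f horth B hcover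

end Vale.Agent.Results.P243.CylinderCount
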