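import Vale.Agent.Lib.P243.SymCenter

namespace Vale.Agent.Results.P243.SymmetricBodies

open MeasureTheory Set
open scoped ENNReal
open Vale.Agent.Lib.Helper4.Bang (dot coords)

/-- Cylinder coverings of a centrally symmetric convex body in three-space.
`K` is a convex body that is centrally symmetric about the point `c`: the reflection
`c + c - x` of every point `x` of `K` lies in `K`. For each `i` the pair `e i`, `f i` is an
orthonormal pair (for the standard dot product) spanning the plane orthogonal to the axis of
the `i`-th cylinder, the base `B i` is an arbitrary planar set given in the orthonormal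
coordinates `e i · x`, `f i · x` of that plane (`volume` is the outer measure on sets that are
not measurable), and the `i`-th cylinder is the set of all `x` whose coordinate pair lies in
`B i`; `coords (e i) (f i) '' K` is the orthogonal projection of `K` to that plane.
If the cylinders cover `K`, then the directionwise relative area of the covering, the sum of
the areas of the bases divided by the areas of the corresponding projections of `K`, is at
least `5 / 12`. -/
theorem result (K : Set (ℝ × ℝ × ℝ)) (hconv : Convex ℝ K) (hcomp : IsCompact K)
    (hint : (interior K).Nonempty) (c : ℝ × ℝ × ℝ) (hsym : ∀ x ∈ K, c + c - x ∈ K) (m : ℕ)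
    (e f : Fin m → ℝ × ℝ × ℝ)
    (horth : ∀ i, dot (e i) (e i) = 1 ∧ dot (f i) (f i) = 1 ∧ dot (e i) (f i) = 0)
    (B : Fin m → Set (ℝ × ℝ))
    (hcover : ∀ x ∈ K, ∃ i, coords (e i) (f i) x ∈ B i) :
    ENNReal.ofReal (5 / 12) ≤ ∑ i, volume (B i) / volume (coords (e i) (f i) '' K) :=
  Vale.Agent.Lib.P243.Sym.sym_cover_center K hconv hcomp hint c hsym m e f horth B hcover

end Vale.Agent.Results.P243.SymmetricBodies
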