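import Vale.Agent.Lib.Helper4.Bang.Frame

namespace Vale.Agent.Results.P243.TwoCylinders

open MeasureTheory Set
open scoped ENNReal
open Vale.Agent.Lib.Helper4.Bang (dot coords)

/-- Two-cylinder case of the half-area cylinder covering problem (directionwise form), for
arbitrary axes. `K` is a convex body in three-space. For `i = 1, 2` the pair `e i`, `f i` is
an orthonormal pair (for the standard dot product) spanning the plane orthogonal to the axis
of the `i`-th cylinder, the base `B i` is an arbitrary planar set given in the orthonormal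
coordinates `(e i · x, f i · x)` of that plane (`volume` is the outer measure on sets that
are not measurable), and the `i`-th cylinder is the set of all `x` whose coordinate pair
lies in `B i`. If the two cylinders cover `K`, then the sum of the two ratios
(area of the base) / (area of the orthogonal projection of `K` to the plane of the base)
is at least one half. -/
theorem result (K : Set (ℝ × ℝ × ℝ)) (hconv : Convex ℝ K) (hcomp : IsCompact K)
    (hint : (interior K).Nonempty) (e₁ f₁ e₂ f₂ : ℝ × ℝ × ℝ)
    (h₁ : dot e₁ e₁ = 1 ∧ dot f₁ f₁ = 1 ∧ dot e₁ f₁ = 0)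
    (h₂ : dot e₂ e₂ = 1 ∧ dot f₂ f₂ = 1 ∧ dot e₂ f₂ = 0)
    (B₁ B₂ : Set (ℝ × ℝ))
    (hcover : ∀ x ∈ K, coords e₁ f₁ x ∈ B₁ ∨ coords e₂ f₂ x ∈ B₂) :
    (1 / 2 : ℝ≥0∞) ≤ volume B₁ / volume (coords e₁ f₁ '' K)
      + volume B₂ / volume (coords e₂ f₂ '' K) :=
  Vale.Agent.Lib.Helper4.Bang.frame K hconv hcomp hint e₁ f₁ e₂ f₂ h₁ h₂ B₁ B₂ hcover

end Vale.Agent.Results.P243.TwoCylinders
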