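import Vale.Agent.Lib.Helper4.Bang.Core

namespace Vale.Agent.Results.P243.TwoCylindersCoord

open MeasureTheory Set
open scoped ENNReal

/-- Two-cylinder case of the half-area cylinder covering problem, in coordinates:
a convex body `K` in three-space covered by the cylinder with base `B₁` in the plane of the
first two coordinates (axis along the third coordinate) and the cylinder with base `B₂` in
the plane of the first and third coordinates (axis along the second coordinate) has
directionwise relative area at least one half. The bases are arbitrary sets (`volume` is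
the outer measure on sets that are not measurable). -/
theorem result (K : Set (ℝ × ℝ × ℝ)) (hconv : Convex ℝ K) (hcomp : IsCompact K)
    (hint : (interior K).Nonempty)
    (B₁ B₂ : Set (ℝ × ℝ))
    (hcover : ∀ p ∈ K, (p.1, p.2.1) ∈ B₁ ∨ (p.1, p.2.2) ∈ B₂) :
    (1 / 2 : ℝ≥0∞) ≤ volume B₁ / volume ((fun p : ℝ × ℝ × ℝ => (p.1, p.2.1)) '' K)
      + volume B₂ / volume ((fun p : ℝ × ℝ × ℝ => (p.1, p.2.2)) '' K) := by
  have pos : ∀ f : ℝ × ℝ × ℝ → ℝ × ℝ, IsOpenMap f → 0 < volume (f '' K) := by
    intro f hf
    have hopen : IsOpen (f '' interior K) := hf _ isOpen_interior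
    exact lt_of_lt_of_le (hopen.measure_pos volume (hint.image f))
      (measure_mono (image_mono interior_subset))
  have o₁ : IsOpenMap (fun p : ℝ × ℝ × ℝ => (p.1, p.2.1)) :=
    IsOpenMap.prodMap IsOpenMap.id isOpenMap_fst
  have o₂ : IsOpenMap (fun p : ℝ × ℝ × ℝ => (p.1, p.2.2)) :=
    IsOpenMap.prodMap IsOpenMap.id isOpenMap_snd
  have key := Vale.Agent.Lib.Helper4.Bang.core K hconv hcomp
    (toMeasurable volume B₁) (toMeasurable volume B₂)
    (measurableSet_toMeasurable volume B₁) (measurableSet_toMeasurable volume B₂)
    (fun p hp => (hcover p hp).imp (fun h => subset_toMeasurable volume B₁ h)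
      (fun h => subset_toMeasurable volume B₂ h)) (pos _ o₁) (pos _ o₂)
  rwa [measure_toMeasurable, measure_toMeasurable] at key

end Vale.Agent.Results.P243.TwoCylindersCoord
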